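import Mathlib
import Vale.Agent.P162.KL.Basic

/-!
# P162, upper bound: entropy of densities on a finite group and right averages over subgroups
-/

namespace Vale.Agent.P162.UB

open Finset
open Classical

variable {G : Type*} [Group G] [Fintype G]

/-- uniform mean -/
noncomputable def E (f : G → ℝ) : ℝ := (∑ g, f g) / (Fintype.card G : ℝ)

/-- `E [f log f]` -/
noncomputable def Phi (f : G → ℝ) : ℝ := E (fun g => f g * Real.log (f g))

/-- homogeneous entropy -/
noncomputable def ent (f : G → ℝ) : ℝ := Phi f - E f * Real.log (E f)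

/-- right average over a subgroup -/
noncomputable def avgS (H : Subgroup G) (f : G → ℝ) (g : G) : ℝ :=
  (∑ h : H, f (g * (h : G))) / (Nat.card H : ℝ)

/-- right invariance -/
def RInv (H : Subgroup G) (f : G → ℝ) : Prop := ∀ g, ∀ h ∈ H, f (g * h) = f g

/-- strong data processing for `K`-invariant densities: `Gam ≥ H` -/
def Sdpi (Gam K H : Subgroup G) (s : ℝ) : Prop :=
  ∀ f : G → ℝ, (∀ g, 0 ≤ f g) → RInv K f →
    ent (avgS H f) - ent (avgS Gam f) ≤ s * (ent f - ent (avgS Gam f))

theorem cardG_pos : (0 : ℝ) < (Fintype.card G : ℝ) := by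
  have : 0 < Fintype.card G := Fintype.card_pos
  exact_mod_cast this

theorem cardS_pos (H : Subgroup G) : (0 : ℝ) < (Nat.card H : ℝ) := by
  have : 0 < Nat.card H := Nat.card_pos
  exact_mod_cast this

theorem avgS_nonneg (H : Subgroup G) (f : G → ℝ) (hf : ∀ g, 0 ≤ f g) (g : G) :
    0 ≤ avgS H f g :=
  div_nonneg (Finset.sum_nonneg fun _ _ => hf _) (cardS_pos H).le

theorem avgS_rinv (H : Subgroup G) (f : G → ℝ) : RInv H (avgS H f) := by
  intro g h hh
  unfold avgS
  congr 1
  have := Equiv.sum_comp (Equiv.mulLeft (⟨h, hh⟩ : H)) (fun h' : H => f (g * (h' : G)))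
  rw [← this]
  apply Finset.sum_congr rfl
  intro x _
  simp [mul_assoc]

theorem avgS_of_rinv (H : Subgroup G) (f : G → ℝ) (h : RInv H f) : avgS H f = f := by
  funext g
  unfold avgS
  have : ∀ x : H, f (g * (x : G)) = f g := fun x => h g x x.2
  simp only [this, Finset.sum_const, Finset.card_univ, nsmul_eq_mul]
  rw [← Nat.card_eq_fintype_card]
  field_simp [(cardS_pos H).ne']

omit [Fintype G] in
theorem RInv.mono {H K : Subgroup G} (hKH : K ≤ H) {f : G → ℝ} (h : RInv H f) : RInv K f :=
  fun g k hk => h g k (hKH hk)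

theorem sum_mul_right (F : G → ℝ) (c : G) : ∑ g, F (g * c) = ∑ g, F g :=
  Equiv.sum_comp (Equiv.mulRight c) F

theorem E_trans (F : G → ℝ) (c : G) : E (fun g => F (g * c)) = E F := by
  unfold E
  rw [sum_mul_right]

/-- `E [avgS H f * ψ] = E [f * ψ]` for right `H`-invariant `ψ`. -/
theorem E_avgS_mul (H : Subgroup G) (f ψ : G → ℝ) (hψ : RInv H ψ) :
    E (fun g => avgS H f g * ψ g) = E (fun g => f g * ψ g) := by
  unfold E avgS
  congr 1
  have h1 : ∀ g, (∑ h : H, f (g * (h : G))) / (Nat.card H : ℝ) * ψ g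
      = ∑ h : H, (f (g * (h : G)) * ψ (g * (h : G))) / (Nat.card H : ℝ) := by
    intro g
    rw [Finset.sum_div, Finset.sum_mul]
    apply Finset.sum_congr rfl
    intro h _
    rw [hψ g h h.2]
    ring
  simp only [h1]
  rw [Finset.sum_comm]
  have h2 : ∀ h : H, ∑ g, (f (g * (h : G)) * ψ (g * (h : G))) / (Nat.card H : ℝ)
      = (∑ g, f g * ψ g) / (Nat.card H : ℝ) := by
    intro h
    rw [← Finset.sum_div]
    congr 1
    exact sum_mul_right (fun g => f g * ψ g) (h : G)
  simp only [h2, Finset.sum_const, Finset.card_univ, nsmul_eq_mul]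
  rw [← Nat.card_eq_fintype_card]
  field_simp [(cardS_pos H).ne']

theorem E_avgS (H : Subgroup G) (f : G → ℝ) : E (avgS H f) = E f := by
  have := E_avgS_mul H f (fun _ => 1) (fun _ _ _ => rfl)
  simpa using this

theorem avgS_avgS_of_le {K L : Subgroup G} (h : K ≤ L) (f : G → ℝ) :
    avgS K (avgS L f) = avgS L f :=
  avgS_of_rinv K _ ((avgS_rinv L f).mono h)

theorem avgS_avgS_of_le' {K L : Subgroup G} (h : K ≤ L) (f : G → ℝ) :
    avgS L (avgS K f) = avgS L f := by
  funext g
  unfold avgS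
  congr 1
  simp only [← Finset.sum_div]
  rw [Finset.sum_comm]
  have h2 : ∀ k : K, ∑ l : L, f (g * (l : G) * (k : G)) = ∑ l : L, f (g * (l : G)) := by
    intro k
    have := Equiv.sum_comp (Equiv.mulRight (⟨k, h k.2⟩ : L)) (fun l : L => f (g * (l : G)))
    rw [← this]
    apply Finset.sum_congr rfl
    intro x _
    simp [mul_assoc]
  simp only [h2, Finset.sum_const, Finset.card_univ, nsmul_eq_mul]
  rw [← Nat.card_eq_fintype_card]
  field_simp [(cardS_pos K).ne']

theorem avgS_comm {K L : Subgroup G} (h : ∀ k ∈ K, ∀ l ∈ L, k * l = l * k) (f : G → ℝ) :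
    avgS K (avgS L f) = avgS L (avgS K f) := by
  funext g
  unfold avgS
  simp only [← Finset.sum_div]
  rw [Finset.sum_comm]
  rw [div_div, div_div, mul_comm (Nat.card L : ℝ)]
  congr 1
  apply Finset.sum_congr rfl
  intro l _
  apply Finset.sum_congr rfl
  intro k _
  rw [mul_assoc, mul_assoc, h k k.2 l l.2]

theorem avgS_bot (f : G → ℝ) : avgS (⊥ : Subgroup G) f = f := by
  apply avgS_of_rinv
  intro g h hh
  rw [Subgroup.mem_bot.1 hh, mul_one]

theorem avgS_top (f : G → ℝ) (g : G) : avgS (⊤ : Subgroup G) f g = E f := by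
  unfold avgS E
  have h1 : (Nat.card (⊤ : Subgroup G) : ℝ) = (Fintype.card G : ℝ) := by
    rw [Subgroup.card_top, Nat.card_eq_fintype_card]
  rw [h1]
  congr 1
  have := Equiv.sum_comp (Subgroup.topEquiv (G := G)).toEquiv (fun x : G => f (g * x))
  rw [← Equiv.sum_comp (Equiv.mulLeft g) f]
  exact this

theorem ent_const (c : ℝ) : ent (fun _ : G => c) = 0 := by
  have hE : ∀ c : ℝ, E (fun _ : G => c) = c := by
    intro c
    unfold E
    simp only [Finset.sum_const, Finset.card_univ, nsmul_eq_mul]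
    field_simp [(cardG_pos (G := G)).ne']
  unfold ent Phi
  rw [hE, hE]
  ring

theorem ent_avgS_top (f : G → ℝ) : ent (avgS (⊤ : Subgroup G) f) = 0 := by
  have : avgS (⊤ : Subgroup G) f = fun _ => E f := funext (avgS_top f)
  rw [this, ent_const]

theorem ent_trans (f : G → ℝ) (c : G) : ent (fun g => f (g * c)) = ent f := by
  unfold ent Phi
  rw [E_trans f c, E_trans (fun g => f g * Real.log (f g)) c]

end Vale.Agent.P162.UB
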