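import Mathlib
import Vale.Agent.P162.KL.Basic
import Vale.Agent.P162.UB.GEnt

/-!
# P162, upper bound: entropy of densities on a finite group, part 2
-/

namespace Vale.Agent.P162.UB

open Finset
open Classical

variable {G : Type*} [Group G] [Fintype G]

theorem E_nonneg (f : G → ℝ) (hf : ∀ g, 0 ≤ f g) : 0 ≤ E f :=
  div_nonneg (Finset.sum_nonneg fun _ _ => hf _) cardG_pos.le

theorem E_mono (f f' : G → ℝ) (h : ∀ g, f g ≤ f' g) : E f ≤ E f' :=
  div_le_div_of_nonneg_right (Finset.sum_le_sum fun g _ => h g) cardG_pos.le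

omit [Group G] in
theorem E_sub (f f' : G → ℝ) : E (fun g => f g - f' g) = E f - E f' := by
  unfold E
  rw [Finset.sum_sub_distrib, sub_div]

omit [Group G] in
theorem E_add (f f' : G → ℝ) : E (fun g => f g + f' g) = E f + E f' := by
  unfold E
  rw [Finset.sum_add_distrib, add_div]

omit [Group G] in
theorem E_smul (c : ℝ) (f : G → ℝ) : E (fun g => c * f g) = c * E f := by
  unfold E
  rw [← Finset.mul_sum, mul_div_assoc]

theorem ent_nonneg (f : G → ℝ) (hf : ∀ g, 0 ≤ f g) : 0 ≤ ent f := by
  have h := KL.log_sum (Finset.univ : Finset G) f (fun _ => 1) (fun g _ => hf g)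
    (fun _ _ => zero_le_one) (fun _ _ h => absurd h one_ne_zero)
  simp only [Finset.sum_const, Finset.card_univ, nsmul_eq_mul, mul_one, div_one] at h
  unfold ent Phi E
  have hc := cardG_pos (G := G)
  rw [sub_nonneg, div_mul_eq_mul_div]
  exact div_le_div_of_nonneg_right h hc.le

theorem avgS_pos_of_pos (K : Subgroup G) (f : G → ℝ) (hf : ∀ g, 0 ≤ f g) (g : G)
    (h : 0 < f g) : 0 < avgS K f g := by
  unfold avgS
  apply div_pos _ (cardS_pos K)
  have : f (g * ((1 : K) : G)) ≤ ∑ h : K, f (g * (h : G)) :=
    Finset.single_le_sum (f := fun h : K => f (g * (h : G))) (fun _ _ => hf _)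
      (Finset.mem_univ (1 : K))
  simp only [Subgroup.coe_one, mul_one] at this
  linarith

/-- differences of entropies of averages are differences of `Phi` -/
theorem ent_sub_ent (K L : Subgroup G) (f : G → ℝ) :
    ent (avgS K f) - ent (avgS L f) = Phi (avgS K f) - Phi (avgS L f) := by
  unfold ent
  rw [E_avgS, E_avgS]
  ring

theorem ent_sub_ent' (L : Subgroup G) (f : G → ℝ) :
    ent f - ent (avgS L f) = Phi f - Phi (avgS L f) := by
  unfold ent
  rw [E_avgS]
  ring

/-- (G1) -/
theorem G1 (K : Subgroup G) (f : G → ℝ) (hf : ∀ g, 0 ≤ f g) :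
    ent f - ent (avgS K f) = E (fun g => f g * Real.log (f g / avgS K f g)) := by
  rw [ent_sub_ent']
  have h1 : Phi (avgS K f) = E (fun g => f g * Real.log (avgS K f g)) := by
    unfold Phi
    apply E_avgS_mul
    intro g h hh
    show Real.log (avgS K f (g * h)) = Real.log (avgS K f g)
    rw [avgS_rinv K f g h hh]
  rw [h1]
  unfold Phi
  rw [← E_sub]
  congr 1
  funext g
  rcases (hf g).eq_or_lt with h0 | hpos
  · rw [← h0]
    ring
  · rw [Real.log_div hpos.ne' (avgS_pos_of_pos K f hf g hpos).ne']
    ring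

/-- `E F = E (avgS K F)` pointwise lower bound gives (G1) nonnegativity -/
theorem ent_avgS_le (K : Subgroup G) (f : G → ℝ) (hf : ∀ g, 0 ≤ f g) :
    ent (avgS K f) ≤ ent f := by
  have h := G1 K f hf
  have h2 : 0 ≤ E (fun g => f g * Real.log (f g / avgS K f g)) := by
    rw [← E_avgS K]
    apply E_nonneg
    intro g
    apply div_nonneg _ (cardS_pos K).le
    have hl := KL.log_sum (Finset.univ : Finset K) (fun k => f (g * (k : G)))
      (fun _ => avgS K f g) (fun _ _ => hf _) (fun _ _ => avgS_nonneg K f hf g)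
      (by
        intro k _ h0
        by_contra hne
        have hpos : 0 < f (g * (k : G)) := lt_of_le_of_ne (hf _) (Ne.symm hne)
        have := avgS_pos_of_pos K f hf _ hpos
        rw [avgS_rinv K f g k k.2] at this
        linarith)
    have hz : (∑ k : K, f (g * (k : G))) / (∑ _k : K, avgS K f g) = 1 ∨
        (∑ k : K, f (g * (k : G))) = 0 := by
      by_cases h0 : (∑ k : K, f (g * (k : G))) = 0
      · right; exact h0
      · left
        simp only [Finset.sum_const, Finset.card_univ, nsmul_eq_mul]
        rw [← Nat.card_eq_fintype_card]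
        unfold avgS
        have := (cardS_pos K).ne'
        field_simp
    have hz' : (∑ k : K, f (g * (k : G))) *
        Real.log ((∑ k : K, f (g * (k : G))) / (∑ _k : K, avgS K f g)) = 0 := by
      rcases hz with h1 | h1
      · rw [h1, Real.log_one, mul_zero]
      · rw [h1, zero_mul]
    rw [hz'] at hl
    refine le_trans hl (le_of_eq ?_)
    apply Finset.sum_congr rfl
    intro k _
    have := avgS_rinv K f g k k.2
    show f (g * (k : G)) * Real.log (f (g * (k : G)) / avgS K f g)
      = f (g * (k : G)) * Real.log (f (g * (k : G)) / avgS K f (g * (k : G)))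
    rw [this]
  linarith

/-- (G2): averaging over a commuting subgroup decreases the relative entropy. -/
theorem G2 {K L : Subgroup G} (hc : ∀ k ∈ K, ∀ l ∈ L, k * l = l * k) (f : G → ℝ)
    (hf : ∀ g, 0 ≤ f g) :
    ent (avgS L f) - ent (avgS K (avgS L f)) ≤ ent f - ent (avgS K f) := by
  rw [G1 K f hf, G1 K (avgS L f) (avgS_nonneg L f hf), avgS_comm hc,
    ← E_avgS L (fun g => f g * Real.log (f g / avgS K f g))]
  apply E_mono
  intro g
  have hl := KL.log_sum (Finset.univ : Finset L) (fun l => f (g * (l : G)))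
    (fun l => avgS K f (g * (l : G))) (fun _ _ => hf _) (fun _ _ => avgS_nonneg K f hf _)
    (by
      intro l _ h0
      by_contra hne
      have hpos : 0 < f (g * (l : G)) := lt_of_le_of_ne (hf _) (Ne.symm hne)
      have := avgS_pos_of_pos K f hf _ hpos
      linarith)
  have hcL := cardS_pos L
  have e1 : avgS L f g / avgS L (avgS K f) g
      = (∑ l : L, f (g * (l : G))) / (∑ l : L, avgS K f (g * (l : G))) := by
    conv_lhs => unfold avgS
    rw [div_div_div_cancel_right₀ hcL.ne']
    rfl
  rw [e1]
  have e2 : avgS L f g = (∑ l : L, f (g * (l : G))) / (Nat.card L : ℝ) := rfl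
  have e3 : avgS L (fun g => f g * Real.log (f g / avgS K f g)) g
      = (∑ l : L, f (g * (l : G)) * Real.log (f (g * (l : G)) / avgS K f (g * (l : G))))
        / (Nat.card L : ℝ) := rfl
  rw [e2, e3, div_mul_eq_mul_div]
  exact div_le_div_of_nonneg_right hl hcL.le

end Vale.Agent.P162.UB
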