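import Mathlib
import Vale.Agent.P162.UB.GEnt2

/-!
# P162, upper bound: entropy on a finite group, part 3 (sup of commuting subgroups, tensorisation,
conjugation, embedding)
-/

namespace Vale.Agent.P162.UB

open Finset
open Classical

variable {G : Type*} [Group G] [Fintype G]

/-- the subgroup of right periods of a function -/
def periods (u : G → ℝ) : Subgroup G where
  carrier := {h | ∀ g, u (g * h) = u g}
  mul_mem' := by
    intro a b ha hb g
    rw [← mul_assoc, hb, ha]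
  one_mem' := by
    intro g
    rw [mul_one]
  inv_mem' := by
    intro a ha g
    have := ha (g * a⁻¹)
    rw [inv_mul_cancel_right] at this
    exact this.symm

omit [Fintype G] in
theorem rinv_iff_le_periods (H : Subgroup G) (u : G → ℝ) : RInv H u ↔ H ≤ periods u :=
  ⟨fun h x hx g => h g x hx, fun h g x hx => h hx g⟩

omit [Fintype G] in
theorem RInv.sup {K L : Subgroup G} {u : G → ℝ} (hK : RInv K u) (hL : RInv L u) :
    RInv (K ⊔ L) u := by
  rw [rinv_iff_le_periods] at *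
  exact sup_le hK hL

theorem avgS_sup {K L : Subgroup G} (hc : ∀ k ∈ K, ∀ l ∈ L, k * l = l * k) (f : G → ℝ) :
    avgS (K ⊔ L) f = avgS K (avgS L f) := by
  have h1 : RInv (K ⊔ L) (avgS K (avgS L f)) := by
    apply RInv.sup (avgS_rinv K _)
    rw [avgS_comm hc]
    exact avgS_rinv L _
  rw [← avgS_of_rinv _ _ h1, avgS_avgS_of_le' le_sup_left, avgS_avgS_of_le' le_sup_right]

/-- invariance under `K` survives an average over a commuting subgroup -/
theorem RInv.avgS_of_comm {K L : Subgroup G} (hc : ∀ k ∈ K, ∀ l ∈ L, k * l = l * k) {f : G → ℝ}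
    (h : RInv K f) : RInv K (avgS L f) := by
  have : avgS L f = avgS K (avgS L f) := by
    rw [avgS_comm hc, avgS_of_rinv K f h]
  rw [this]
  exact avgS_rinv K _

/-- tensorisation of `Sdpi` over two commuting factors -/
theorem Sdpi_mul {Gam1 K1 H1 Gam2 K2 H2 : Subgroup G} {s : ℝ} (hs : 0 ≤ s)
    (hc : ∀ a ∈ Gam1, ∀ b ∈ Gam2, a * b = b * a)
    (hK1 : K1 ≤ Gam1) (hH1 : H1 ≤ Gam1) (hK2 : K2 ≤ Gam2) (hH2 : H2 ≤ Gam2)
    (h1 : Sdpi Gam1 K1 H1 s) (h2 : Sdpi Gam2 K2 H2 s) :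
    Sdpi (Gam1 ⊔ Gam2) (K1 ⊔ K2) (H1 ⊔ H2) s := by
  intro f hf hinv
  have hcH : ∀ a ∈ H1, ∀ b ∈ H2, a * b = b * a := fun a ha b hb => hc a (hH1 ha) b (hH2 hb)
  have hcGH : ∀ a ∈ Gam1, ∀ b ∈ H2, a * b = b * a := fun a ha b hb => hc a ha b (hH2 hb)
  have hcKH : ∀ a ∈ K1, ∀ b ∈ H2, a * b = b * a := fun a ha b hb => hc a (hK1 ha) b (hH2 hb)
  have hcKG : ∀ a ∈ K2, ∀ b ∈ Gam1, a * b = b * a :=
    fun a ha b hb => (hc b hb a (hK2 ha)).symm
  have i1 : RInv K1 f := hinv.mono le_sup_left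
  have i2 : RInv K2 f := hinv.mono le_sup_right
  rw [avgS_sup hc, avgS_sup hcH]
  have a1 := h1 (avgS H2 f) (avgS_nonneg H2 f hf) (i1.avgS_of_comm hcKH)
  have a2 := G2 hcGH f hf
  have a3 := h2 (avgS Gam1 f) (avgS_nonneg Gam1 f hf) (i2.avgS_of_comm hcKG)
  have e1 : avgS Gam1 (avgS H2 f) = avgS H2 (avgS Gam1 f) := avgS_comm hcGH f
  have e2 : avgS Gam1 (avgS Gam2 f) = avgS Gam2 (avgS Gam1 f) := avgS_comm hc f
  rw [e2]
  rw [e1] at a1 a2
  have a4 := mul_le_mul_of_nonneg_left a2 hs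
  nlinarith [a1, a3, a4]

theorem Sdpi_bot (s : ℝ) : Sdpi (⊥ : Subgroup G) ⊥ ⊥ s := by
  intro f _ _
  rw [avgS_bot]
  simp

/-- tensorisation over a finite family of pairwise commuting factors -/
theorem Sdpi_iSup {ι : Type*} (Gam K H : ι → Subgroup G) {s : ℝ} (hs : 0 ≤ s)
    (hc : ∀ i j, i ≠ j → ∀ a ∈ Gam i, ∀ b ∈ Gam j, a * b = b * a)
    (hK : ∀ i, K i ≤ Gam i) (hH : ∀ i, H i ≤ Gam i)
    (h : ∀ i, Sdpi (Gam i) (K i) (H i) s) (t : Finset ι) :
    Sdpi (t.sup Gam) (t.sup K) (t.sup H) s := by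
  induction t using Finset.induction_on with
  | empty => simpa using Sdpi_bot s
  | insert i t hi ih =>
    rw [Finset.sup_insert, Finset.sup_insert, Finset.sup_insert]
    apply Sdpi_mul hs _ (hK i) (hH i) (Finset.sup_mono_fun fun j _ => hK j)
      (Finset.sup_mono_fun fun j _ => hH j) (h i) ih
    intro a ha b hb
    have hle : t.sup Gam ≤ Subgroup.centralizer ({a} : Set G) := by
      apply Finset.sup_le
      intro j hj x hx
      rw [Subgroup.mem_centralizer_iff]
      intro y hy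
      rw [Set.mem_singleton_iff.1 hy]
      exact hc i j (fun e => hi (e ▸ hj)) a ha x hx
    have := Subgroup.mem_centralizer_iff.1 (hle hb) a (Set.mem_singleton a)
    exact this

/-- averages and right translations: `K = c K' c⁻¹` -/
theorem avgS_conj {K K' : Subgroup G} (c : G) (hK : ∀ p, p ∈ K' ↔ c * p * c⁻¹ ∈ K) (f : G → ℝ)
    (g : G) : avgS K (fun x => f (x * c)) g = avgS K' f (g * c) := by
  let e : K' ≃ K :=
    { toFun := fun p => ⟨c * p * c⁻¹, (hK p).1 p.2⟩
      invFun := fun k => ⟨c⁻¹ * k * c, (hK _).2 (by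
        have : c * (c⁻¹ * (k : G) * c) * c⁻¹ = k := by group
        rw [this]; exact k.2)⟩
      left_inv := by
        intro p
        apply Subtype.ext
        show c⁻¹ * (c * (p : G) * c⁻¹) * c = p
        group
      right_inv := by
        intro k
        apply Subtype.ext
        show c * (c⁻¹ * (k : G) * c) * c⁻¹ = k
        group }
  unfold avgS
  rw [Nat.card_congr e]
  congr 1
  rw [← Equiv.sum_comp e]
  apply Finset.sum_congr rfl
  intro p _
  show f (g * (c * (p : G) * c⁻¹) * c) = f (g * c * (p : G))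
  congr 1
  group

end Vale.Agent.P162.UB
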