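import Mathlib
import Vale.Agent.P162.UB.GEnt3

/-!
# P162, upper bound: entropy on a finite group, part 4 (embedding of a smaller group)
-/

namespace Vale.Agent.P162.UB

open Finset
open Classical

variable {G : Type*} [Group G] [Fintype G] {G₀ : Type*} [Group G₀] [Fintype G₀]

/-- double counting: `E F = E_g E_x F (g * φ x)` -/
theorem E_eq_E_E (φ : G₀ →* G) (F : G → ℝ) :
    E F = E (fun g => E (fun x : G₀ => F (g * φ x))) := by
  unfold E
  rw [← Finset.sum_div, Finset.sum_comm]
  simp only [sum_mul_right, Finset.sum_const, Finset.card_univ, nsmul_eq_mul]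
  have := (cardG_pos (G := G₀)).ne'
  field_simp

/-- the average over the image subgroup, read in the small group -/
theorem avgS_map (φ : G₀ →* G) (hφ : Function.Injective φ) (H : Subgroup G₀) (f : G → ℝ) (g : G)
    (x : G₀) : avgS (H.map φ) f (g * φ x) = avgS H (fun y => f (g * φ y)) x := by
  unfold avgS
  rw [← Nat.card_congr (H.equivMapOfInjective φ hφ).toEquiv]
  congr 1
  rw [← Equiv.sum_comp (H.equivMapOfInjective φ hφ).toEquiv]
  apply Finset.sum_congr rfl
  intro h _
  simp [mul_assoc]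

theorem Phi_eq_E_Phi (φ : G₀ →* G) (f : G → ℝ) :
    Phi f = E (fun g => Phi (fun x : G₀ => f (g * φ x))) := by
  unfold Phi
  exact E_eq_E_E φ _

theorem Sdpi_embed (φ : G₀ →* G) (hφ : Function.Injective φ) {Gam K H : Subgroup G₀} {s : ℝ}
    (h : Sdpi Gam K H s) : Sdpi (Gam.map φ) (K.map φ) (H.map φ) s := by
  intro f hf hinv
  rw [ent_sub_ent, ent_sub_ent', Phi_eq_E_Phi φ (avgS (H.map φ) f),
    Phi_eq_E_Phi φ (avgS (Gam.map φ) f), Phi_eq_E_Phi φ f, ← E_sub, ← E_sub, ← E_smul]
  apply E_mono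
  intro g
  have hl := h (fun y => f (g * φ y)) (fun y => hf _) (by
    intro y k hk
    show f (g * φ (y * k)) = f (g * φ y)
    rw [map_mul, ← mul_assoc]
    exact hinv _ _ (Subgroup.mem_map_of_mem φ hk))
  rw [ent_sub_ent, ent_sub_ent'] at hl
  have e1 : (fun x : G₀ => avgS (H.map φ) f (g * φ x)) = avgS H (fun y => f (g * φ y)) :=
    funext (avgS_map φ hφ H f g)
  have e2 : (fun x : G₀ => avgS (Gam.map φ) f (g * φ x)) = avgS Gam (fun y => f (g * φ y)) :=
    funext (avgS_map φ hφ Gam f g)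
  rw [e1, e2]
  exact hl

end Vale.Agent.P162.UB
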